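import Vale.Agent.P129.All
import Vale.Agent.P129.Stmt
import Vale.Agent.P129s.Commuting

/-! P129 (separable quotient problem), partial answer: structure of the bounded operators on a
Banach space without separable infinite-dimensional quotient. -/

open Filter Topology Set Vale.Agent.P129

universe u

theorem Vale.Agent.Results.P129.Operators.result :
    -- infinite-dimensional complex Banach spaces without separable infinite-dimensional quotient
    (∀ (X : Type u) [NormedAddCommGroup X] [NormedSpace ℂ X] [CompleteSpace X],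
      ¬ FiniteDimensional ℂ X → ¬ HasSepQuot ℂ X → EssCommutingActByScalars X) ∧
    -- real or complex Banach spaces without separable infinite-dimensional quotient
    (∀ (𝕜 : Type) [RCLike 𝕜] (X : Type u) [NormedAddCommGroup X] [NormedSpace 𝕜 X]
      [CompleteSpace X], ¬ HasSepQuot 𝕜 X → StrongIsNorm 𝕜 X) ∧
    -- Banach algebras with a sequential left approximate identity
    (∀ (𝕜 : Type) [RCLike 𝕜] (A : Type u) [NonUnitalNormedRing A] [NormedSpace 𝕜 A]
      [IsScalarTower 𝕜 A A] [SMulCommClass 𝕜 A A] [CompleteSpace A], ¬ HasSepQuot 𝕜 A →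
      ∀ e : ℕ → A, (∀ a, Tendsto (fun n => e n * a) atTop (𝓝 a)) → ∃ v : A, ∀ a, v * a = a) := by
  refine ⟨fun X _ _ _ hX hbad => Vale.Agent.P129s.commuting hX hbad,
    fun 𝕜 _ X _ _ _ hbad => ⟨fun T h => ?_, fun T P h => ?_, fun T h => ?_⟩,
    fun 𝕜 _ A _ _ _ _ _ hbad e he => ?_⟩
  · by_contra hc
    exact hbad (semigroup T h.1 h.2.1 h.2.2 hc)
  · by_contra hc
    refine hbad (meanErgodic T h.1 P (fun x => (h.2 x).congr fun n => ?_) hc)
    simp [cesaro]
  · by_contra hc
    exact hbad (asymptoticUnit T h.1 h.2 hc)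
  · by_contra hc
    exact hbad (algebra e he hc)
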