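import Vale.Agent.P129.All
import Vale.Agent.P129.Stmt
import Vale.Agent.P129s.Commuting
import Vale.Agent.P129s.Sub
import Vale.Agent.P129s.StmtA
import Vale.Agent.P129s.ThreeSpace
import Vale.Agent.P129s.Real

/-! P129 (separable quotient problem), partial answer: structure of the bounded operators on a
Banach space without separable infinite-dimensional quotient. -/

open Filter Topology Set Vale.Agent.P129 Vale.Agent.P129s

universe u

theorem Vale.Agent.Results.P129.Structure.result :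
    -- infinite-dimensional complex Banach spaces without separable infinite-dimensional quotient
    (∀ (X : Type u) [NormedAddCommGroup X] [NormedSpace ℂ X] [CompleteSpace X],
      ¬ FiniteDimensional ℂ X → ¬ HasSepQuot ℂ X →
        EssCommutingActByScalars X ∧ SeparableAlgebrasReduce X) ∧
    -- the same for real scalars
    (∀ (X : Type u) [NormedAddCommGroup X] [NormedSpace ℝ X] [CompleteSpace X],
      ¬ FiniteDimensional ℝ X → ¬ HasSepQuot ℝ X → EssCommutingActQuadratically X) ∧
    -- real or complex Banach spaces without separable infinite-dimensional quotient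
    (∀ (𝕜 : Type) [RCLike 𝕜] (X : Type u) [NormedAddCommGroup X] [NormedSpace 𝕜 X]
      [CompleteSpace X], ¬ HasSepQuot 𝕜 X → StrongIsNorm 𝕜 X) ∧
    -- Banach algebras with a sequential left approximate identity
    (∀ (𝕜 : Type) [RCLike 𝕜] (A : Type u) [NonUnitalNormedRing A] [NormedSpace 𝕜 A]
      [IsScalarTower 𝕜 A A] [SMulCommClass 𝕜 A A] [CompleteSpace A], ¬ HasSepQuot 𝕜 A →
      ∀ e : ℕ → A, (∀ a, Tendsto (fun n => e n * a) atTop (𝓝 a)) → ∃ v : A, ∀ a, v * a = a) ∧
    -- three-space property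
    (∀ (𝕜 : Type) [RCLike 𝕜] (X : Type u) [NormedAddCommGroup X] [NormedSpace 𝕜 X]
      [CompleteSpace X] (W : Submodule 𝕜 X) [IsClosed (W : Set X)], HasSepQuot 𝕜 X →
      HasSepQuot 𝕜 W ∨ HasSepQuot 𝕜 (X ⧸ W)) := by
  refine ⟨fun X _ _ _ hX hbad => ⟨Vale.Agent.P129s.commuting hX hbad, fun A hA => ?_⟩,
    fun X _ _ _ hX hbad T hT => real_ess hX hbad T hT,
    fun 𝕜 _ X _ _ _ hbad => ⟨fun T h => ?_, fun T P h => ?_, fun T h => ?_⟩,
    fun 𝕜 _ A _ _ _ _ _ hbad e he => ?_,
    fun 𝕜 _ X _ _ _ W _ h => (three_space W h).imp hasSepQuot_of_SQ hasSepQuot_of_SQ⟩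
  · obtain ⟨Y, h1, h2, h3, h4, h5, h6, h7⟩ := structureA hX hbad A hA
    exact ⟨Y, ⟨h1, h2, h3⟩, h4, h5, h6, fun Y' hY hA' => h7 Y' hY hA'.1 hA'.2.1 hA'.2.2⟩
  · by_contra hc
    exact hbad (semigroup T h.1 h.2.1 h.2.2 hc)
  · by_contra hc
    refine hbad (meanErgodic T h.1 P (fun x => (h.2 x).congr fun n => ?_) hc)
    simp [cesaro]
  · by_contra hc
    exact hbad (asymptoticUnit T h.1 h.2 hc)
  · by_contra hc
    exact hbad (algebra e he hc)
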